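import Vale.Agent.P143.UDefs
import Vale.Agent.P143.Rule
import Vale.Agent.P143.FinalCor

/-!
# P143: the free uniform spanning forest is a factor of IID on every graph

* every Cayley graph of every finitely generated group `Γ`: `Γ`-factor of IID;
* every connected locally finite graph: factor of IID equivariant under all automorphisms;
* one Borel edge rule `Φ(G, U, e)`, invariant under isomorphisms, works for every connected
  locally finite graph `G` on the vertex set `ℕ`;
* hence the FUSF is a graph factor of IID on every unimodular random graph.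
-/

open MeasureTheory Vale.Agent.P143

namespace Vale.Agent.Results.P143.FUSFfactor

universe u v

theorem result :
    (∀ (Γ : Type u) [Group Γ] (S : Finset Γ), Subgroup.closure (S : Set Γ) = ⊤ →
      ∃ Φ : (Γ → unitInterval) → (Sym2 Γ → Bool), Measurable Φ ∧
        (∀ (γ : Γ) (U : Γ → unitInterval),
          Φ (fun v => U (γ⁻¹ * v)) = fun e => Φ U (Sym2.map (fun v => γ⁻¹ * v) e)) ∧
        IsFUSF (SimpleGraph.mulCayley (S : Set Γ)) ((iid Γ).map Φ)) ∧
    (∀ (V : Type v) [Countable V] (G : SimpleGraph V), G.Connected →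
      (∀ v, (G.neighborSet v).Finite) →
      ∃ Φ : (V → unitInterval) → (Sym2 V → Bool), Measurable Φ ∧
        (∀ (π : G ≃g G) (U : V → unitInterval),
          Φ (fun v => U (π.symm v)) = fun e => Φ U (Sym2.map π.symm e)) ∧
        IsFUSF G ((iid V).map Φ)) ∧
    (∃ Φ : (Sym2 ℕ → Bool) → (ℕ → unitInterval) → Sym2 ℕ → Bool, IsEdgeRule Φ ∧
      ∀ g : Sym2 ℕ → Bool, (codeGraph g).Connected →
        (∀ v, ((codeGraph g).neighborSet v).Finite) →
        IsFUSF (codeGraph g) ((iid ℕ).map (Φ g))) ∧
    (∀ μ : Measure ((Sym2 ℕ → Bool) × ℕ), IsUnimodular μ →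
      ∃ Φ : (Sym2 ℕ → Bool) → (ℕ → unitInterval) → Sym2 ℕ → Bool, IsEdgeRule Φ ∧
        ∀ᵐ p ∂μ, IsFUSF (codeGraph p.1) ((iid ℕ).map (Φ p.1))) := by
  refine ⟨?_, ?_, exists_rule, ?_⟩
  · intro Γ _ S hS
    have := countable_of_closure hS
    exact cayley_of Γ (universal Γ) S hS
  · intro V _ G hc hf
    exact all_graphs_of V (universal V) G hc hf
  · intro μ hμ
    obtain ⟨Φ, h1, h2⟩ := exists_rule
    refine ⟨Φ, h1, ?_⟩
    filter_upwards [hμ.graph] with p hp
    exact h2 p.1 hp.1 hp.2

end Vale.Agent.Results.P143.FUSFfactor
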